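import Mathlib

namespace Vale.Agent.Results.P201.ExtensionByUP

open MonoidAlgebra

/-- **Extension closure.**  Let `f : G →* Q` be a group homomorphism into a group `Q` with the
unique-product property.  If the group algebra of the kernel of `f` has no zero divisors, then the
group algebra of `G` has no zero divisors (coefficients in an arbitrary semiring, in particular in
any field). -/
theorem result {R G Q : Type*} [Semiring R] [Group G] [Group Q] [UniqueProds Q] (f : G →* Q)
    (h : NoZeroDivisors (MonoidAlgebra R f.ker)) : NoZeroDivisors (MonoidAlgebra R G) := by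
  classical
  refine ⟨fun {α β} hαβ => ?_⟩
  by_contra hne
  push Not at hne
  obtain ⟨hα, hβ⟩ := hne
  have hαs : α.coeff.support.Nonempty := by
    rw [Finsupp.support_nonempty_iff]
    simpa using hα
  have hβs : β.coeff.support.Nonempty := by
    rw [Finsupp.support_nonempty_iff]
    simpa using hβ
  obtain ⟨a₀, ha₀, b₀, hb₀, huniq⟩ :=
    UniqueProds.uniqueMul_of_nonempty (hαs.image f) (hβs.image f)
  obtain ⟨g₀, hg₀, rfl⟩ := Finset.mem_image.1 ha₀
  obtain ⟨h₀, hh₀, rfl⟩ := Finset.mem_image.1 hb₀
  have injL : Function.Injective (fun n : f.ker => g₀ * (n : G)) := by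
    intro x y hxy
    exact Subtype.ext (mul_left_cancel hxy)
  have injR : Function.Injective (fun n : f.ker => (n : G) * h₀) := by
    intro x y hxy
    exact Subtype.ext (mul_right_cancel hxy)
  let α' : MonoidAlgebra R f.ker :=
    .ofCoeff (α.coeff.comapDomain (fun n : f.ker => g₀ * (n : G)) injL.injOn)
  let β' : MonoidAlgebra R f.ker :=
    .ofCoeff (β.coeff.comapDomain (fun n : f.ker => (n : G) * h₀) injR.injOn)
  have hα'c : ∀ m : f.ker, α'.coeff m = α.coeff (g₀ * (m : G)) := fun m => rfl
  have hβ'c : ∀ m : f.ker, β'.coeff m = β.coeff ((m : G) * h₀) := fun m => rfl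
  have hα' : α' ≠ 0 := by
    intro h0
    have : α'.coeff 1 = 0 := by rw [h0]; rfl
    rw [hα'c] at this
    simp only [OneMemClass.coe_one, mul_one] at this
    exact (Finsupp.mem_support_iff.1 hg₀) this
  have hβ' : β' ≠ 0 := by
    intro h0
    have : β'.coeff 1 = 0 := by rw [h0]; rfl
    rw [hβ'c] at this
    simp only [OneMemClass.coe_one, one_mul] at this
    exact (Finsupp.mem_support_iff.1 hh₀) this
  have hprod : α' * β' ≠ 0 := mul_ne_zero hα' hβ'
  obtain ⟨n, hn⟩ : ∃ n, (α' * β').coeff n ≠ 0 := by
    by_contra hall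
    push Not at hall
    apply hprod
    ext m
    simpa using hall m
  have key : (α * β).coeff (g₀ * (n : G) * h₀) = (α' * β').coeff n := by
    rw [coeff_mul_apply_left, coeff_mul_apply_left, Finsupp.sum, Finsupp.sum]
    have e1 : ∑ m ∈ α'.coeff.support, α'.coeff m * β'.coeff (m⁻¹ * n) =
        ∑ g ∈ α'.coeff.support.map ⟨fun m : f.ker => g₀ * (m : G), injL⟩,
          α.coeff g * β.coeff (g⁻¹ * (g₀ * (n : G) * h₀)) := by
      rw [Finset.sum_map]
      refine Finset.sum_congr rfl fun m _ => ?_
      rw [hα'c, hβ'c]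
      congr 2
      simp only [Function.Embedding.coeFn_mk, Subgroup.coe_mul, Subgroup.coe_inv]
      group
    rw [e1]
    symm
    apply Finset.sum_subset
    · intro g hg
      obtain ⟨m, hm, rfl⟩ := Finset.mem_map.1 hg
      rw [Finsupp.mem_support_iff] at hm ⊢
      simpa [hα'c] using hm
    · intro g hg hgn
      by_contra hterm
      have hβg : β.coeff (g⁻¹ * (g₀ * (n : G) * h₀)) ≠ 0 := right_ne_zero_of_mul hterm
      have h1 : f g ∈ α.coeff.support.image f := Finset.mem_image_of_mem f hg
      have h2 : f (g⁻¹ * (g₀ * (n : G) * h₀)) ∈ β.coeff.support.image f :=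
        Finset.mem_image_of_mem f (Finsupp.mem_support_iff.2 hβg)
      have hnk : f (n : G) = 1 := n.2
      have h3 : f g * f (g⁻¹ * (g₀ * (n : G) * h₀)) = f g₀ * f h₀ := by
        rw [← map_mul, mul_inv_cancel_left, map_mul, map_mul, hnk, mul_one]
      have h4 := (huniq h1 h2 h3).1
      apply hgn
      rw [Finset.mem_map]
      have hmem : g₀⁻¹ * g ∈ f.ker := by
        rw [MonoidHom.mem_ker, map_mul, map_inv, h4, inv_mul_cancel]
      refine ⟨⟨g₀⁻¹ * g, hmem⟩, ?_, ?_⟩
      · rw [Finsupp.mem_support_iff, hα'c]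
        simpa using Finsupp.mem_support_iff.1 hg
      · simp
  apply hn
  rw [← key, hαβ]
  rfl

end Vale.Agent.Results.P201.ExtensionByUP
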